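import Vale.Agent.P045.Basic

/-!
P045: Ryser's bound for intersecting hypergraphs of maximum degree at most three.
-/

namespace Vale.Agent.Results.P045.MaxDegreeThree

/-- Let `6 ≤ r` and let `H` be an intersecting `r`-partite `r`-uniform hypergraph (a finite set of
edges, each with exactly one vertex in each part) in which every vertex lies in at most three
edges. Then `H` has a vertex cover of size at most `r - 1`. For `7 ≤ r` the same holds for all
`r`-uniform intersecting hypergraphs, `r`-partite or not. -/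
theorem result {V : Type*} [DecidableEq V] :
    (∀ r : ℕ, 6 ≤ r → ∀ H : Finset (Finset V), ∀ part : V → Fin r,
      (∀ e ∈ H, ∀ i : Fin r, (e.filter (fun v => part v = i)).card = 1) →
      (∀ e ∈ H, ∀ f ∈ H, (e ∩ f).Nonempty) →
      (∀ v : V, (H.filter (fun e => v ∈ e)).card ≤ 3) →
      ∃ C : Finset V, C.card ≤ r - 1 ∧ ∀ e ∈ H, ∃ v ∈ C, v ∈ e) ∧
    (∀ r : ℕ, 7 ≤ r → ∀ H : Finset (Finset V), (∀ e ∈ H, e.card = r) →
      (∀ e ∈ H, ∀ f ∈ H, (e ∩ f).Nonempty) →
      (∀ v : V, (H.filter (fun e => v ∈ e)).card ≤ 3) →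
      ∃ C : Finset V, C.card ≤ r - 1 ∧ ∀ e ∈ H, ∃ v ∈ C, v ∈ e) := by
  refine ⟨fun r hr6 H part hpart hint hd => ?_, fun r hr7 H hr hint hd =>
    Vale.Agent.P045.main7 r hr7 H hr hint hd⟩
  rcases Nat.lt_or_ge r 7 with h7 | h7
  · have h6 : r = 6 := by omega
    subst h6
    exact Vale.Agent.P045.main6 H part hpart hint hd
  · have hr : ∀ e ∈ H, e.card = r := by
      intro e he
      have h1 := Finset.card_eq_sum_card_fiberwise (f := part) (s := e) (t := Finset.univ)
        (fun x _ => Finset.mem_coe.2 (Finset.mem_univ _))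
      rw [h1, Finset.sum_congr rfl (fun i _ => hpart e he i)]
      simp
    exact Vale.Agent.P045.main7 r h7 H hr hint hd

end Vale.Agent.Results.P045.MaxDegreeThree
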